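import Vale.Agent.P032.H338.Letters
import Vale.Agent.P032.H926.NearFar

/-!
# P032: the cross rule for continua (row X.S4)

`C` a connected set of points of the closure of `U c` (no arcs, no finiteness).

`cross406` : a point `g` with `dist g q < 1 < dist g q'` for two points `q`, `q'` of `C` is not in
the closure of `U c`.
`sub_far406`, `sub_near406` : if `c` is a colour at `g`, then `C` is in the closed disc about `g` or
outside the open disc, and one point decides which.
`near_or_far406` : two such continua of the same colour, no point of the second one at distance one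
from the whole first one: all distances are at most one, or all are at least one.
`forced406` : `|T u| ≤ 3`, `g` on the circle of `u` separates two points of a continuum carrying all
the colours of `S`: `T g` contains a colour outside `T u` and outside `S`.
`forced_pair406` : `T u = {e, f, x}`, the continuum carries `c` and `d`: `y ∈ T g` (six colours).
`forced_arcs406` : two connected sets of such points `g` at two centres, the same forced colour.
-/

open Set Filter Topology Metric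

noncomputable section

namespace Vale.Agent.P032.H406

open Vale.Agent.P032.Six

variable {k : ℕ} {U : Fin k → Set ℂ}

/-- **The cross rule.** -/
theorem cross406 (h : Mx U) {c : Fin k} {C : Set ℂ} (hC : IsPreconnected C)
    (hs : ∀ x ∈ C, c ∈ Pal U x) {g q q' : ℂ} (hq : q ∈ C) (hq' : q' ∈ C) (h1 : dist g q < 1)
    (h2 : 1 < dist g q') : c ∉ Pal U g := by
  intro hg
  have h3 : ∃ᶠ x in 𝓝 g, x ∈ U c := mem_closure_iff_frequently.1 hg
  have c1 : Continuous fun x : ℂ => dist x q := by fun_prop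
  have c2 : Continuous fun x : ℂ => dist x q' := by fun_prop
  have h4 : ∀ᶠ x in 𝓝 g, dist x q < 1 := c1.continuousAt.eventually (isOpen_Iio.mem_nhds h1)
  have h5 : ∀ᶠ x in 𝓝 g, 1 < dist x q' := c2.continuousAt.eventually (isOpen_Ioi.mem_nhds h2)
  obtain ⟨x, hx, hx1, hx2⟩ := (h3.and_eventually (h4.and h5)).exists
  have hc : ContinuousOn (fun y : ℂ => dist x y) C := by fun_prop
  obtain ⟨y, hy, hy1⟩ := hC.intermediate_value hq hq' hc
    (show (1 : ℝ) ∈ Icc (dist x q) (dist x q') from ⟨hx1.le, hx2.le⟩)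
  have hy2 : dist x y = 1 := hy1
  exact h.notMem' hx hy2 (hs y hy)

/-- a colour at `g`: one point of the continuum nearer than one, all of it in the closed disc -/
theorem sub_near406 (h : Mx U) {c : Fin k} {C : Set ℂ} (hC : IsPreconnected C)
    (hs : ∀ x ∈ C, c ∈ Pal U x) {g q : ℂ} (hg : c ∈ Pal U g) (hq : q ∈ C) (h1 : dist g q < 1) :
    ∀ x ∈ C, dist g x ≤ 1 := by
  intro x hx
  by_contra hcon
  push Not at hcon
  exact cross406 h hC hs hq hx h1 hcon hg

/-- a colour at `g`: one point of the continuum farther than one, all of it outside the open disc -/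
theorem sub_far406 (h : Mx U) {c : Fin k} {C : Set ℂ} (hC : IsPreconnected C)
    (hs : ∀ x ∈ C, c ∈ Pal U x) {g q : ℂ} (hg : c ∈ Pal U g) (hq : q ∈ C) (h1 : 1 < dist g q) :
    ∀ x ∈ C, 1 ≤ dist g x := by
  intro x hx
  by_contra hcon
  push Not at hcon
  exact cross406 h hC hs hx hq hcon h1 hg

/-- **Two continua of the same colour.** -/
theorem near_or_far406 (h : Mx U) {c : Fin k} {C D : Set ℂ} (hC : IsPreconnected C)
    (hD : IsPreconnected D) (hs : ∀ x ∈ C, c ∈ Pal U x) (hs' : ∀ x ∈ D, c ∈ Pal U x)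
    (hn : ∀ g ∈ D, ∃ q ∈ C, dist g q ≠ 1) :
    (∀ g ∈ D, ∀ q ∈ C, dist g q ≤ 1) ∨ (∀ g ∈ D, ∀ q ∈ C, 1 ≤ dist g q) := by
  by_contra hcon
  push Not at hcon
  obtain ⟨⟨g1, hg1, q1, hq1, h1⟩, ⟨g2, hg2, q2, hq2, h2⟩⟩ := hcon
  have o1 : IsOpen {g : ℂ | ∃ q ∈ C, dist g q < 1} := by
    have : {g : ℂ | ∃ q ∈ C, dist g q < 1} = ⋃ q ∈ C, ball q 1 := by
      ext g; simp
    rw [this]
    exact isOpen_biUnion fun q _ => isOpen_ball
  have o2 : IsOpen {g : ℂ | ∃ q ∈ C, 1 < dist g q} := by
    have : {g : ℂ | ∃ q ∈ C, 1 < dist g q} = ⋃ q ∈ C, (closedBall q 1)ᶜ := by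
      ext g; simp
    rw [this]
    exact isOpen_biUnion fun q _ => isClosed_closedBall.isOpen_compl
  obtain ⟨g, hg, ⟨⟨q, hq, h3⟩, ⟨q', hq', h4⟩⟩⟩ := hD _ _ o1 o2 (fun g hg => by
    obtain ⟨q, hq, hne⟩ := hn g hg
    rcases lt_or_gt_of_ne hne with h5 | h5
    · exact Or.inl ⟨q, hq, h5⟩
    · exact Or.inr ⟨q, hq, h5⟩) ⟨g2, hg2, q2, hq2, h2⟩ ⟨g1, hg1, q1, hq1, h1⟩
  exact cross406 h hC hs hq hq' h3 h4 (hs' g hg)

/-- two continua of the same colour: a point of the second one nearer than one to a point of the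
first, and a pair farther than one, is impossible -/
theorem near_far_false406 (h : Mx U) {c : Fin k} {C D : Set ℂ} (hC : IsPreconnected C)
    (hD : IsPreconnected D) (hs : ∀ x ∈ C, c ∈ Pal U x) (hs' : ∀ x ∈ D, c ∈ Pal U x)
    (hn : ∀ g ∈ D, ∃ q ∈ C, dist g q ≠ 1) {g g' q q' : ℂ} (hg : g ∈ D) (hg' : g' ∈ D)
    (hq : q ∈ C) (hq' : q' ∈ C) (h1 : dist g q < 1) (h2 : 1 < dist g' q') : False := by
  rcases near_or_far406 h hC hD hs hs' hn with h3 | h3
  · exact absurd (h3 g' hg' q' hq') (not_le.2 h2)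
  · exact absurd (h3 g hg q hq) (not_le.2 h1)

/-! ### forced letters -/

variable {V : Fin 6 → Set ℂ} {T : ℂ → Set (Fin 6)}

/-- **Forced letter.** -/
theorem forced406 (h : Irr V T) {u g q q' : ℂ} (hu : (T u).ncard ≤ 3) (hg : dist g u = 1)
    {S : Set (Fin 6)} {C : Set ℂ} (hC : IsPreconnected C) (hs : ∀ x ∈ C, S ⊆ T x) (hq : q ∈ C)
    (hq' : q' ∈ C) (h1 : dist g q < 1) (h2 : 1 < dist g q') : ∃ i ∈ T g, i ∉ T u ∧ i ∉ S := by
  obtain ⟨i, hi, hiu⟩ := H338.letter_three h hu hg
  exact ⟨i, hi, hiu, fun hiS => cross406 h.mx hC (fun x hx => h.sub x (hs x hx hiS)) hq hq' h1 h2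
    (h.sub g hi)⟩

/-- **Forced letter**, pair form: `T u = {e, f, x}`, the continuum carries `c` and `d`. -/
theorem forced_pair406 (h : Irr V T) {u g q q' : ℂ} {x y c d e f : Fin 6}
    (hn : [x, y, c, d, e, f].Nodup) (hu : T u = {e, f, x}) (hg : dist g u = 1)
    {C : Set ℂ} (hC : IsPreconnected C) (hc : ∀ p ∈ C, c ∈ T p) (hd : ∀ p ∈ C, d ∈ T p)
    (hq : q ∈ C) (hq' : q' ∈ C) (h1 : dist g q < 1) (h2 : 1 < dist g q') : y ∈ T g := by
  have hu3 : (T u).ncard ≤ 3 := by
    rw [hu]
    have h3 := Set.ncard_insert_le e ({f, x} : Set (Fin 6))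
    have h4 := Set.ncard_insert_le f ({x} : Set (Fin 6))
    rw [Set.ncard_singleton] at h4
    omega
  obtain ⟨i, hi, hiu, hiS⟩ := forced406 h hu3 hg (S := {c, d}) hC (fun p hp m hm => by
    rcases hm with rfl | hm
    · exact hc p hp
    · rw [mem_singleton_iff] at hm; rw [hm]; exact hd p hp) hq hq' h1 h2
  rw [hu] at hiu
  simp only [mem_insert_iff, mem_singleton_iff, not_or] at hiu hiS
  have hm : i ∈ [x, y, c, d, e, f] := by
    by_contra hcon
    have h3 := (List.nodup_cons.2 ⟨hcon, hn⟩).length_le_card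
    simp at h3
  simp only [List.mem_cons, List.not_mem_nil, or_false] at hm
  rcases hm with h3 | h3 | h3 | h3 | h3 | h3
  · exact absurd h3 hiu.2.2
  · rw [← h3]; exact hi
  · exact absurd h3 hiS.1
  · exact absurd h3 hiS.2
  · exact absurd h3 hiu.1
  · exact absurd h3 hiu.2.1

/-- **Two forced arcs.**  `G`, `G'` connected sets on which the colour `y` is forced by
`forced_pair406`; they cannot contain both a near and a far pair. -/
theorem forced_arcs406 (h : Irr V T) {y : Fin 6} {G G' : Set ℂ} (hG : IsPreconnected G)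
    (hG' : IsPreconnected G') (hy : ∀ g ∈ G, y ∈ T g) (hy' : ∀ g ∈ G', y ∈ T g)
    (hn : ∀ g ∈ G', ∃ q ∈ G, dist g q ≠ 1) {g g' q q' : ℂ} (hg : g ∈ G') (hg' : g' ∈ G')
    (hq : q ∈ G) (hq' : q' ∈ G) (h1 : dist g q < 1) (h2 : 1 < dist g' q') : False :=
  near_far_false406 h.mx hG hG' (fun x hx => h.sub x (hy x hx)) (fun x hx => h.sub x (hy' x hx)) hn
    hg hg' hq hq' h1 h2

end Vale.Agent.P032.H406
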