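import Vale.Agent.P032.H259.TwoArc

/-!
# P032: the chord rule

`p` a point with an `m`-partner `y`, `w` a neighbour of `p` not on the line `py`, `w' j` finitely
many neighbours of `p` not on the line `pw`, with circles `S(c' j)` through `w' j` (transversal to
`S(p)`).  The letters `P' j` at the `w' j` can be chosen among the available ones such that for every
circle `S(c)` through `w` and every letter `P` of `S(c)` available at `w` the point `p` is a limit of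
points with no colour of `P`, no colour of the `P' j` and without `m` (`chord_freq`, `chord`).
`chord_one` : one neighbour `w'`.
`chord_XX` : the version for `p` in `XX`, the partner is not given.
-/

open Set Filter Topology Metric

noncomputable section

namespace Vale.Agent.P032.H406

open Vale.Agent.P032.Six Vale.Agent.P032.S5.H767 Vale.Agent.P032.H187 Vale.Agent.P032.H259

variable {k : ℕ} {U : Fin k → Set ℂ} {T : ℂ → Set (Fin k)} {J : Type*}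

/-- the data of the first phase: a point `x` of `S(w)` near `p`, a point `v` of `U m` near `y` at
distance one from `x`, and points of the arcs of the `S(c' j)` at distance one from `x` -/
def Dat (U : Fin k → Set ℂ) (m : Fin k) (y p w : ℂ) (w' c' : J → ℂ) (P' : J → Set (Fin k))
    (s : Set J) (ε : ℝ) : Prop :=
  ∃ x v, ∃ b : J → ℂ, dist x p < ε ∧ dist v y < ε ∧ v ∈ U m ∧ dist x w = 1 ∧ dist v x = 1 ∧
    ∀ j ∈ s, b j ∈ Cr U (c' j) (P' j) ∧ dist (b j) (w' j) < ε ∧ dist x (b j) = 1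

theorem Dat.mono {m : Fin k} {y p w : ℂ} {w' c' : J → ℂ} {P' : J → Set (Fin k)} {s : Set J}
    {ε ε' : ℝ} (h : Dat U m y p w w' c' P' s ε) (hε : ε ≤ ε') :
    Dat U m y p w w' c' P' s ε' := by
  obtain ⟨x, v, b, h1, h2, h3, h4, h5, h6⟩ := h
  exact ⟨x, v, b, h1.trans_le hε, h2.trans_le hε, h3, h4, h5, fun j hj =>
    ⟨(h6 j hj).1, (h6 j hj).2.1.trans_le hε, (h6 j hj).2.2⟩⟩

/-- the crossing point of `S(x)` with `S(c)` moves continuously with `x` and stays in an arc -/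
theorem follow {x c b : ℂ} {P : Set (Fin k)} (hb : b ∈ Cr U c P) (hxb : dist x b = 1)
    (h0 : x ≠ c) (h2 : x + c ≠ 2 * b) : ∃ σ : ℝ, apex σ x c = b ∧
      ContinuousAt (fun x' : ℂ => apex σ x' c) x ∧
      ∀ᶠ x' in 𝓝 x, apex σ x' c ∈ Cr U c P ∧ dist x' (apex σ x' c) = 1 ∧ x' ≠ c ∧
        x' + c ≠ 2 * apex σ x' c := by
  have hbc : dist b c = 1 := hb.1
  obtain ⟨σ, hσ, hap⟩ := exists_apex hxb (by rw [dist_comm]; exact hbc) h0 h2
  have hlt := norm_lt_two hxb (by rw [dist_comm]; exact hbc : dist c b = 1) h2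
  have hc : ContinuousAt (fun x' : ℂ => apex σ x' c) x :=
    ContinuousAt.comp (f := fun x' : ℂ => (x', c)) (g := fun r : ℂ × ℂ => apex σ r.1 r.2)
      (apex_cont (σ := σ) h0) (by fun_prop)
  have hT : Tendsto (fun x' : ℂ => apex σ x' c) (𝓝 x) (𝓝 b) := by
    have := hc.tendsto
    simpa only [hap] using this
  have e1 : ∀ᶠ x' in 𝓝 x, x' ≠ c := isOpen_ne.mem_nhds h0
  have e2 : ∀ᶠ x' in 𝓝 x, ‖c - x'‖ < 2 := by
    have h3 : ContinuousAt (fun x' : ℂ => ‖c - x'‖) x := by fun_prop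
    exact h3.eventually (Iio_mem_nhds hlt)
  have e3 : ∀ᶠ x' in 𝓝 x, x' + c - 2 * apex σ x' c ≠ 0 := by
    have h3 : ContinuousAt (fun x' : ℂ => x' + c - 2 * apex σ x' c) x :=
      (continuousAt_id.add continuousAt_const).sub (continuousAt_const.mul hc)
    have h4 : x + c - 2 * apex σ x c ≠ 0 := by rw [hap]; exact sub_ne_zero.2 h2
    exact h3.eventually (isOpen_ne.mem_nhds h4)
  refine ⟨σ, hap, hc, ?_⟩
  filter_upwards [e1, e2, e3, hT.eventually (Cr_nhds hb)] with x' g1 g2 g3 g4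
  obtain ⟨d1, d2⟩ := apex_dist hσ g1 g2
  exact ⟨g4 d2, by rw [dist_comm]; exact d1, g1, sub_ne_zero.1 g3⟩

theorem chord_step [Finite J] (hU : ∀ i, IsOpen (U i)) {m : Fin k} {y p w : ℂ} {w' c' : J → ℂ}
    {𝓕 : J → Set (Set (Fin k))} (hm : m ∈ Pal U y) (hy : dist y p = 1) (hw : dist w p = 1)
    (y1 : y ≠ w) (y2 : y + w ≠ 2 * p) (hw' : ∀ j, dist (w' j) p = 1) (hc' : ∀ j, dist (w' j) (c' j) = 1)
    (h0 : ∀ j, w' j ≠ w) (h2 : ∀ j, w' j + w ≠ 2 * p) (a₂ : ∀ j, p ≠ c' j)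
    (b₂ : ∀ j, p + c' j ≠ 2 * w' j)
    (cov : ∀ j, ∀ᶠ b in 𝓝 (w' j), dist b (c' j) = 1 → b ∈ closure (⋃ P ∈ 𝓕 j, Cr U (c' j) P))
    (s : Finset J) : ∀ ε > 0, ∃ P' : J → Set (Fin k), (∀ j ∈ s, P' j ∈ 𝓕 j) ∧
      Dat U m y p w w' c' P' (s : Set J) ε := by
  classical
  -- the constants
  have hev : ∀ᶠ ε : ℝ in 𝓝[>] 0, ∀ j, (∀ x b : ℂ, dist x p < ε → dist b (w' j) < ε →
      x ≠ c' j ∧ x + c' j ≠ 2 * b ∧ b ≠ w ∧ b + w ≠ 2 * x) ∧
      (∀ b, dist b (w' j) < ε → dist b (c' j) = 1 → b ∈ closure (⋃ P ∈ 𝓕 j, Cr U (c' j) P)) := by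
    refine eventually_all.2 fun j => ?_
    have g1 : ∀ᶠ r : ℂ × ℂ in 𝓝 (p, w' j), r.1 ≠ c' j ∧ r.1 + c' j - 2 * r.2 ≠ 0 ∧ r.2 ≠ w ∧
        r.2 + w - 2 * r.1 ≠ 0 := by
      have e1 : ContinuousAt (fun r : ℂ × ℂ => r.1) (p, w' j) := by fun_prop
      have e2 : ContinuousAt (fun r : ℂ × ℂ => r.1 + c' j - 2 * r.2) (p, w' j) := by fun_prop
      have e3 : ContinuousAt (fun r : ℂ × ℂ => r.2) (p, w' j) := by fun_prop
      have e4 : ContinuousAt (fun r : ℂ × ℂ => r.2 + w - 2 * r.1) (p, w' j) := by fun_prop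
      exact (e1.eventually (isOpen_ne.mem_nhds (a₂ j))).and
        ((e2.eventually (isOpen_ne.mem_nhds (sub_ne_zero.2 (b₂ j)))).and
        ((e3.eventually (isOpen_ne.mem_nhds (h0 j))).and
        (e4.eventually (isOpen_ne.mem_nhds (sub_ne_zero.2 (h2 j))))))
    obtain ⟨r, hr, hr'⟩ := Metric.eventually_nhds_iff.1 g1
    obtain ⟨r₂, hr₂, hr₂'⟩ := Metric.eventually_nhds_iff.1 (cov j)
    filter_upwards [Ioo_mem_nhdsGT (lt_min hr hr₂)] with ε hε
    refine ⟨fun x b hx hb => ?_, fun b hb => hr₂' (hb.trans (hε.2.trans_le (min_le_right _ _)))⟩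
    have h3 : dist (x, b) (p, w' j) < r := by
      rw [Prod.dist_eq]
      exact max_lt (hx.trans (hε.2.trans_le (min_le_left _ _)))
        (hb.trans (hε.2.trans_le (min_le_left _ _)))
    obtain ⟨h4, h5, h6, h7⟩ := hr' h3
    exact ⟨h4, sub_ne_zero.1 h5, h6, sub_ne_zero.1 h7⟩
  obtain ⟨ε₀, hε₀, hε₀pos⟩ := (hev.and self_mem_nhdsWithin).exists
  have hε₀pos : 0 < ε₀ := hε₀pos
  induction s using Finset.induction_on with
  | empty =>
    intro ε hε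
    refine ⟨fun _ => ∅, by simp, ?_⟩
    obtain ⟨σ, hσ, hap⟩ := exists_apex hy hw y1 y2
    have hlt := norm_lt_two hy hw y2
    have hc : ContinuousAt (fun v : ℂ => apex σ v w) y :=
      ContinuousAt.comp (f := fun v : ℂ => (v, w)) (g := fun r : ℂ × ℂ => apex σ r.1 r.2)
        (apex_cont (σ := σ) y1) (by fun_prop)
    have hT : Tendsto (fun v : ℂ => apex σ v w) (𝓝 y) (𝓝 p) := by
      have := hc.tendsto
      simpa only [hap] using this
    have e1 : ∀ᶠ v in 𝓝 y, v ≠ w := isOpen_ne.mem_nhds y1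
    have e2 : ∀ᶠ v in 𝓝 y, ‖w - v‖ < 2 := by
      have h3 : ContinuousAt (fun v : ℂ => ‖w - v‖) y := by fun_prop
      exact h3.eventually (Iio_mem_nhds hlt)
    have e3 : ∀ᶠ v in 𝓝 y, dist v y < ε := Metric.ball_mem_nhds y hε
    have e4 : ∀ᶠ v in 𝓝 y, dist (apex σ v w) p < ε := hT.eventually (Metric.ball_mem_nhds p hε)
    obtain ⟨v, hv, g1, g2, g3, g4⟩ := ((mem_closure_iff_frequently.1 hm).and_eventually
      (e1.and (e2.and (e3.and e4)))).exists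
    obtain ⟨d1, d2⟩ := apex_dist hσ g1 g2
    exact ⟨apex σ v w, v, fun _ => 0, g4, g3, hv, d2, by rw [dist_comm]; exact d1, by simp⟩
  | insert j₀ s hj₀ ih =>
    intro ε hε
    -- the crossing point near `w' j₀`
    obtain ⟨σ₀, hσ₀, hap₀⟩ := exists_apex (p := w' j₀) (x := p) (y := c' j₀)
      (by rw [dist_comm]; exact hw' j₀) (by rw [dist_comm]; exact hc' j₀) (a₂ j₀) (b₂ j₀)
    have hlt₀ := norm_lt_two (p := w' j₀) (x := p) (y := c' j₀)
      (by rw [dist_comm]; exact hw' j₀) (by rw [dist_comm]; exact hc' j₀) (b₂ j₀)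
    have hc₀ : ContinuousAt (fun x : ℂ => apex σ₀ x (c' j₀)) p :=
      ContinuousAt.comp (f := fun x : ℂ => (x, c' j₀)) (g := fun r : ℂ × ℂ => apex σ₀ r.1 r.2)
        (apex_cont (σ := σ₀) (a₂ j₀)) (by fun_prop)
    have hT₀ : Tendsto (fun x : ℂ => apex σ₀ x (c' j₀)) (𝓝 p) (𝓝 (w' j₀)) := by
      have := hc₀.tendsto
      simpa only [hap₀] using this
    have f1 : ∀ᶠ x in 𝓝 p, x ≠ c' j₀ := isOpen_ne.mem_nhds (a₂ j₀)
    have f2 : ∀ᶠ x in 𝓝 p, ‖c' j₀ - x‖ < 2 := by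
      have h3 : ContinuousAt (fun x : ℂ => ‖c' j₀ - x‖) p := by fun_prop
      exact h3.eventually (Iio_mem_nhds hlt₀)
    obtain ⟨r, hr, hr'⟩ := Metric.eventually_nhds_iff.1 (f1.and (f2.and
      (hT₀.eventually (Metric.ball_mem_nhds (w' j₀) (lt_min hε hε₀pos)))))
    obtain ⟨P', hP', x, v, b, hxp, hvy, hvU, hxw, hvx, hb⟩ :=
      ih (min (min ε ε₀) r) (lt_min (lt_min hε hε₀pos) hr)
    have hxε : dist x p < ε := hxp.trans_le ((min_le_left _ _).trans (min_le_left _ _))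
    have hxε₀ : dist x p < ε₀ := hxp.trans_le ((min_le_left _ _).trans (min_le_right _ _))
    obtain ⟨g1, g2, g3⟩ := hr' (hxp.trans_le (min_le_right _ _))
    obtain ⟨b₀, hb₀⟩ : ∃ b₀, b₀ = apex σ₀ x (c' j₀) := ⟨_, rfl⟩
    obtain ⟨d1, d2⟩ := apex_dist hσ₀ g1 g2
    rw [← hb₀] at g3 d1 d2
    have g3 : dist b₀ (w' j₀) < min ε ε₀ := g3
    obtain ⟨-, -, n3, n4⟩ := (hε₀ j₀).1 x b₀ hxε₀ (g3.trans_le (min_le_right _ _))
    have hcov := (hε₀ j₀).2 b₀ (g3.trans_le (min_le_right _ _)) d2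
    -- the inverse map
    obtain ⟨τ, hτ, hapτ⟩ := exists_apex d1 (by rw [dist_comm]; exact hxw : dist w x = 1) n3 n4
    have hltτ := norm_lt_two d1 (by rw [dist_comm]; exact hxw : dist w x = 1) n4
    have hcτ : ContinuousAt (fun b' : ℂ => apex τ b' w) b₀ :=
      ContinuousAt.comp (f := fun b' : ℂ => (b', w)) (g := fun r : ℂ × ℂ => apex τ r.1 r.2)
        (apex_cont (σ := τ) n3) (by fun_prop)
    have hTτ : Tendsto (fun b' : ℂ => apex τ b' w) (𝓝 b₀) (𝓝 x) := by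
      have := hcτ.tendsto
      simpa only [hapτ] using this
    have e1 : ∀ᶠ b' in 𝓝 b₀, b' ≠ w := isOpen_ne.mem_nhds n3
    have e2 : ∀ᶠ b' in 𝓝 b₀, ‖w - b'‖ < 2 := by
      have h3 : ContinuousAt (fun b' : ℂ => ‖w - b'‖) b₀ := by fun_prop
      exact h3.eventually (Iio_mem_nhds hltτ)
    have e3 : ∀ᶠ b' in 𝓝 b₀, dist b' (w' j₀) < ε :=
      Metric.isOpen_ball.mem_nhds (g3.trans_le (min_le_left _ _))
    have e4 : ∀ᶠ x' in 𝓝 x, dist x' p < ε := Metric.isOpen_ball.mem_nhds hxε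
    have hTv : Tendsto (fun x' : ℂ => v + (x' - x)) (𝓝 x) (𝓝 v) := by
      have h3 : ContinuousAt (fun x' : ℂ => v + (x' - x)) x := by fun_prop
      have := h3.tendsto
      simpa only [sub_self, add_zero] using this
    have e5 : ∀ᶠ x' in 𝓝 x, v + (x' - x) ∈ U m := hTv.eventually ((hU m).mem_nhds hvU)
    have e6 : ∀ᶠ x' in 𝓝 x, dist (v + (x' - x)) y < ε := hTv.eventually
      (Metric.isOpen_ball.mem_nhds (hvy.trans_le ((min_le_left _ _).trans (min_le_left _ _))))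
    -- the other arcs
    have hfol : ∀ j ∈ s, ∃ σ : ℝ, ∀ᶠ x' in 𝓝 x, apex σ x' (c' j) ∈ Cr U (c' j) (P' j) ∧
        dist (apex σ x' (c' j)) (w' j) < ε ∧ dist x' (apex σ x' (c' j)) = 1 := by
      intro j hj
      obtain ⟨h3, h4, h5⟩ := hb j (by exact_mod_cast hj)
      obtain ⟨n1, n2, -, -⟩ := (hε₀ j).1 x (b j) hxε₀
        (h4.trans_le ((min_le_left _ _).trans (min_le_right _ _)))
      obtain ⟨σ, hσ, hσc, hσe⟩ := follow h3 h5 n1 n2
      have h6 : ∀ᶠ x' in 𝓝 x, dist (apex σ x' (c' j)) (w' j) < ε := by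
        have h7 : Tendsto (fun x' : ℂ => apex σ x' (c' j)) (𝓝 x) (𝓝 (b j)) := by
          have := hσc.tendsto
          simpa only [hσ] using this
        exact h7.eventually (Metric.isOpen_ball.mem_nhds
          (h4.trans_le ((min_le_left _ _).trans (min_le_left _ _))))
      exact ⟨σ, (hσe.and h6).mono fun x' hx' => ⟨hx'.1.1, hx'.2, hx'.1.2.1⟩⟩
    choose! σ hσ using hfol
    have e7 : ∀ᶠ x' in 𝓝 x, ∀ j ∈ s, apex (σ j) x' (c' j) ∈ Cr U (c' j) (P' j) ∧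
        dist (apex (σ j) x' (c' j)) (w' j) < ε ∧ dist x' (apex (σ j) x' (c' j)) = 1 :=
      (eventually_all_finset s).2 hσ
    obtain ⟨b', hb', ⟨k1, k2, k3⟩, k4, k5, k6, k7⟩ :=
      ((mem_closure_iff_frequently.1 hcov).and_eventually ((e1.and (e2.and e3)).and
        (hTτ.eventually (e4.and (e5.and (e6.and e7)))))).exists
    obtain ⟨P, hP, hbP⟩ := mem_iUnion₂.1 hb'
    obtain ⟨d3, d4⟩ := apex_dist hτ k1 k2
    obtain ⟨x', hx'⟩ : ∃ x', x' = apex τ b' w := ⟨_, rfl⟩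
    rw [← hx'] at d3 d4 k4 k5 k6 k7
    refine ⟨Function.update P' j₀ P, ?_, x', v + (x' - x),
      fun j => if j = j₀ then b' else apex (σ j) x' (c' j), k4, k6, k5, d4, ?_, ?_⟩
    · intro j hj
      rcases Finset.mem_insert.1 hj with rfl | hj
      · rw [Function.update_self]; exact hP
      · have hne : j ≠ j₀ := fun h3 => hj₀ (h3 ▸ hj)
        rw [Function.update_of_ne hne]; exact hP' j hj
    · rw [dist_eq_norm] at hvx ⊢
      rw [← hvx]; congr 1; ring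
    · intro j hj
      have hj : j ∈ insert j₀ s := by exact_mod_cast hj
      rcases Finset.mem_insert.1 hj with rfl | hj
      · rw [Function.update_self]
        simp only [if_true]
        exact ⟨hbP, k3, d3⟩
      · have hne : j ≠ j₀ := fun h3 => hj₀ (h3 ▸ hj)
        rw [Function.update_of_ne hne]
        simp only [hne, if_false]
        exact k7 j hj

/-- **First phase**: the letters at the `w' j` are chosen. -/
theorem exists_dat [Finite J] (hU : ∀ i, IsOpen (U i)) {m : Fin k} {y p w : ℂ} {w' c' : J → ℂ}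
    {𝓕 : J → Set (Set (Fin k))} (hm : m ∈ Pal U y) (hy : dist y p = 1) (hw : dist w p = 1)
    (y1 : y ≠ w) (y2 : y + w ≠ 2 * p) (hw' : ∀ j, dist (w' j) p = 1) (hc' : ∀ j, dist (w' j) (c' j) = 1)
    (h0 : ∀ j, w' j ≠ w) (h2 : ∀ j, w' j + w ≠ 2 * p) (a₂ : ∀ j, p ≠ c' j)
    (b₂ : ∀ j, p + c' j ≠ 2 * w' j)
    (cov : ∀ j, ∀ᶠ b in 𝓝 (w' j), dist b (c' j) = 1 → b ∈ closure (⋃ P ∈ 𝓕 j, Cr U (c' j) P)) :
    ∃ P' : J → Set (Fin k), (∀ j, P' j ∈ 𝓕 j) ∧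
      (∀ j, w' j ∈ closure (Cr U (c' j) (P' j))) ∧
      ∀ ε > 0, Dat U m y p w w' c' P' univ ε := by
  classical
  obtain ⟨s, hs⟩ : ∃ s : Finset J, ∀ j, j ∈ s := by
    have := Fintype.ofFinite J
    exact ⟨Finset.univ, fun j => Finset.mem_univ j⟩
  have key : ∃ P' : J → Set (Fin k), (∀ j, P' j ∈ 𝓕 j) ∧
      ∀ ε > 0, Dat U m y p w w' c' P' univ ε := by
    by_contra hcon
    push Not at hcon
    have h3 : ∀ P' : J → Set (Fin k), ∃ ε > 0, (∀ j, P' j ∈ 𝓕 j) →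
        ¬ Dat U m y p w w' c' P' univ ε := by
      intro P'
      by_cases h4 : ∀ j, P' j ∈ 𝓕 j
      · obtain ⟨ε, hε, h5⟩ := hcon P' h4
        exact ⟨ε, hε, fun _ => h5⟩
      · exact ⟨1, one_pos, fun h5 => absurd h5 h4⟩
    choose ε hε hno using h3
    have h4 : ∀ᶠ r : ℝ in 𝓝[>] 0, ∀ P', r < ε P' :=
      eventually_all.2 fun P' => by
        filter_upwards [Ioo_mem_nhdsGT (hε P')] with r hr using hr.2
    obtain ⟨r, hr, hr0⟩ := (h4.and self_mem_nhdsWithin).exists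
    obtain ⟨P', hP', hD⟩ := chord_step hU hm hy hw y1 y2 hw' hc' h0 h2 a₂ b₂ cov s r hr0
    have h5 : (s : Set J) = univ := eq_univ_of_forall fun j => by exact_mod_cast hs j
    rw [h5] at hD
    exact hno P' (fun j => hP' j (hs j)) (hD.mono (hr P').le)
  obtain ⟨P', h3, h4⟩ := key
  refine ⟨P', h3, fun j => Metric.mem_closure_iff.2 fun ε hε => ?_, h4⟩
  obtain ⟨x, v, b, -, -, -, -, -, hb⟩ := h4 ε hε
  exact ⟨b j, (hb j (mem_univ j)).1, by rw [dist_comm]; exact (hb j (mem_univ j)).2.1⟩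

/-- **Second phase**: all the letters available at `w`. -/
theorem dat_freq [Finite J] (h : Mx U) {m : Fin k} {y p w : ℂ} {w' c' : J → ℂ}
    {P' : J → Set (Fin k)} (y1 : y ≠ w) (y2 : y + w ≠ 2 * p) (a₂ : ∀ j, p ≠ c' j) (b₂ : ∀ j, p + c' j ≠ 2 * w' j)
    (hD : ∀ ε > 0, Dat U m y p w w' c' P' univ ε) {c : ℂ} {P : Set (Fin k)}
    (hP : w ∈ closure (Cr U c P)) (a₁ : p ≠ c) (b₁ : p + c ≠ 2 * w) :
    ∃ᶠ x in 𝓝 p, ∀ t, t = m ∨ t ∈ P ∨ (∃ j, t ∈ P' j) → t ∉ Pal U x := by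
  rw [frequently_iff]
  intro N hN
  obtain ⟨N', hN'N, hN'o, hpN'⟩ := _root_.mem_nhds_iff.1 hN
  -- the constants
  have g1 : ∀ᶠ r : ℂ × ℂ in 𝓝 (p, y), r.2 ≠ w ∧ r.2 + w - 2 * r.1 ≠ 0 ∧ r.1 ≠ c ∧
      r.1 + c - 2 * w ≠ 0 ∧ r.1 ∈ N' := by
    have e1 : ContinuousAt (fun r : ℂ × ℂ => r.2) (p, y) := by fun_prop
    have e2 : ContinuousAt (fun r : ℂ × ℂ => r.2 + w - 2 * r.1) (p, y) := by fun_prop
    have e3 : ContinuousAt (fun r : ℂ × ℂ => r.1) (p, y) := by fun_prop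
    have e4 : ContinuousAt (fun r : ℂ × ℂ => r.1 + c - 2 * w) (p, y) := by fun_prop
    exact (e1.eventually (isOpen_ne.mem_nhds y1)).and
      ((e2.eventually (isOpen_ne.mem_nhds (sub_ne_zero.2 y2))).and
      ((e3.eventually (isOpen_ne.mem_nhds a₁)).and
      ((e4.eventually (isOpen_ne.mem_nhds (sub_ne_zero.2 b₁))).and
      (e3.eventually (hN'o.mem_nhds hpN')))))
  obtain ⟨r, hr, hr'⟩ := Metric.eventually_nhds_iff.1 g1
  have hev : ∀ᶠ ε : ℝ in 𝓝[>] 0, ∀ j, ∀ x b : ℂ, dist x p < ε → dist b (w' j) < ε →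
      x ≠ c' j ∧ x + c' j ≠ 2 * b := by
    refine eventually_all.2 fun j => ?_
    have g1 : ∀ᶠ r : ℂ × ℂ in 𝓝 (p, w' j), r.1 ≠ c' j ∧ r.1 + c' j - 2 * r.2 ≠ 0 := by
      have e1 : ContinuousAt (fun r : ℂ × ℂ => r.1) (p, w' j) := by fun_prop
      have e2 : ContinuousAt (fun r : ℂ × ℂ => r.1 + c' j - 2 * r.2) (p, w' j) := by fun_prop
      exact (e1.eventually (isOpen_ne.mem_nhds (a₂ j))).and
        (e2.eventually (isOpen_ne.mem_nhds (sub_ne_zero.2 (b₂ j))))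
    obtain ⟨r, hr, hr'⟩ := Metric.eventually_nhds_iff.1 g1
    filter_upwards [Ioo_mem_nhdsGT hr] with ε hε x b hx hb
    have h3 : dist (x, b) (p, w' j) < r := by
      rw [Prod.dist_eq]
      exact max_lt (hx.trans hε.2) (hb.trans hε.2)
    obtain ⟨h4, h5⟩ := hr' h3
    exact ⟨h4, sub_ne_zero.1 h5⟩
  obtain ⟨ε, ⟨hεj, hεr⟩, hε0⟩ := ((hev.and (Ioo_mem_nhdsGT hr)).and self_mem_nhdsWithin).exists
  have hε0 : 0 < ε := hε0
  obtain ⟨x, v, b, hxp, hvy, hvU, hxw, hvx, hb⟩ := hD ε hε0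
  have h3 : dist (x, v) (p, y) < r := by
    rw [Prod.dist_eq]
    exact max_lt (hxp.trans hεr.2) (hvy.trans hεr.2)
  obtain ⟨n1, n2, n3, n4, n5⟩ := hr' h3
  have n1 : v ≠ w := n1
  have n2 : v + w ≠ 2 * x := sub_ne_zero.1 n2
  have n3 : x ≠ c := n3
  have n4 : x + c ≠ 2 * w := sub_ne_zero.1 n4
  have n5 : x ∈ N' := n5
  -- the point `x` as a function of the point on `S(c)`
  obtain ⟨σ, hσ, hap⟩ := exists_apex hvx (by rw [dist_comm]; exact hxw : dist w x = 1) n1 n2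
  have hlt := norm_lt_two hvx (by rw [dist_comm]; exact hxw : dist w x = 1) n2
  have hc : ContinuousAt (fun a : ℂ => apex σ v a) w :=
    ContinuousAt.comp (f := fun a : ℂ => (v, a)) (g := fun r : ℂ × ℂ => apex σ r.1 r.2)
      (apex_cont (σ := σ) n1) (by fun_prop)
  have hT : Tendsto (fun a : ℂ => apex σ v a) (𝓝 w) (𝓝 x) := by
    have := hc.tendsto
    simpa only [hap] using this
  have e1 : ∀ᶠ a in 𝓝 w, v - a ≠ 0 := by
    have h4 : ContinuousAt (fun a : ℂ => v - a) w := by fun_prop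
    exact h4.eventually (isOpen_ne.mem_nhds (sub_ne_zero.2 n1))
  have e2 : ∀ᶠ a in 𝓝 w, ‖a - v‖ < 2 := by
    have h4 : ContinuousAt (fun a : ℂ => ‖a - v‖) w := by fun_prop
    exact h4.eventually (Iio_mem_nhds hlt)
  have e3 : ∀ᶠ x' in 𝓝 x, x' ≠ c ∧ x' ∈ N' := by
    filter_upwards [isOpen_ne.mem_nhds n3, hN'o.mem_nhds n5] with x' h4 h5
    exact ⟨h4, h5⟩
  have e4 : ∀ᶠ a in 𝓝 w, apex σ v a + c - 2 * a ≠ 0 := by
    have h4 : ContinuousAt (fun a : ℂ => apex σ v a + c - 2 * a) w :=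
      (hc.add continuousAt_const).sub (by fun_prop)
    refine h4.eventually (isOpen_ne.mem_nhds ?_)
    have h5 : apex σ v w + c - 2 * w ≠ 0 := by rw [hap]; exact sub_ne_zero.2 n4
    exact h5
  have e5 : ∀ᶠ x' in 𝓝 x, ∀ j, ∃ b' ∈ Cr U (c' j) (P' j), dist x' b' = 1 ∧ x' ≠ c' j ∧
      x' + c' j ≠ 2 * b' := by
    refine eventually_all.2 fun j => ?_
    obtain ⟨h4, h5, h6⟩ := hb j (mem_univ j)
    obtain ⟨n6, n7⟩ := hεj j x (b j) hxp h5
    obtain ⟨σ', -, -, hσe⟩ := follow h4 h6 n6 n7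
    exact hσe.mono fun x' hx' => ⟨_, hx'.1, hx'.2.1, hx'.2.2.1, hx'.2.2.2⟩
  obtain ⟨a, ha, k1, k2, k3, ⟨k4, k5⟩, k6⟩ := ((mem_closure_iff_frequently.1 hP).and_eventually
    (e1.and (e2.and (e4.and (hT.eventually (e3.and e5)))))).exists
  obtain ⟨d1, d2⟩ := apex_dist hσ (sub_ne_zero.1 k1) k2
  obtain ⟨x', hx'⟩ : ∃ x', x' = apex σ v a := ⟨_, rfl⟩
  rw [← hx'] at k3 k4 k5 k6 d1 d2
  refine ⟨x', hN'N k5, ?_⟩
  rintro t (rfl | ht | ⟨j, ht⟩)
  · exact h.notMem' hvU (by rw [dist_comm]; exact d1)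
  · exact Cr_line h ha ht (by rw [dist_comm]; exact d2) k4 (sub_ne_zero.1 k3)
  · obtain ⟨b', hb', h4, h5, h6⟩ := k6 j
    exact Cr_line h hb' ht (by rw [dist_comm]; exact h4) h5 h6

/-- **Chord rule**: the letters at the `w' j` can be chosen for all the letters at `w` at once. -/
theorem chord_freq [Finite J] (h : Mx U) {m : Fin k} {y p w : ℂ} {w' c' : J → ℂ}
    {𝓕 : J → Set (Set (Fin k))} (hm : m ∈ Pal U y) (hy : dist y p = 1) (hw : dist w p = 1)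
    (y1 : y ≠ w) (y2 : y + w ≠ 2 * p) (hw' : ∀ j, dist (w' j) p = 1) (hc' : ∀ j, dist (w' j) (c' j) = 1)
    (h0 : ∀ j, w' j ≠ w) (h2 : ∀ j, w' j + w ≠ 2 * p) (a₂ : ∀ j, p ≠ c' j)
    (b₂ : ∀ j, p + c' j ≠ 2 * w' j)
    (cov : ∀ j, ∀ᶠ b in 𝓝 (w' j), dist b (c' j) = 1 → b ∈ closure (⋃ P ∈ 𝓕 j, Cr U (c' j) P)) :
    ∃ P' : J → Set (Fin k), (∀ j, P' j ∈ 𝓕 j) ∧ (∀ j, w' j ∈ closure (Cr U (c' j) (P' j))) ∧
      ∀ c P, p ≠ c → p + c ≠ 2 * w → w ∈ closure (Cr U c P) →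
        ∃ᶠ x in 𝓝 p, ∀ t, t = m ∨ t ∈ P ∨ (∃ j, t ∈ P' j) → t ∉ Pal U x := by
  obtain ⟨P', h3, h4, h5⟩ := exists_dat h.isOpen hm hy hw y1 y2 hw' hc' h0 h2 a₂ b₂ cov
  exact ⟨P', h3, h4, fun c P a₁ b₁ hP => dat_freq h y1 y2 a₂ b₂ h5 hP a₁ b₁⟩

/-- **Chord rule**, palette form. -/
theorem chord [Finite J] (h : Irr U T) {m : Fin k} {y p w : ℂ} {w' c' : J → ℂ}
    {𝓕 : J → Set (Set (Fin k))} (hm : m ∈ Pal U y) (hy : dist y p = 1) (hw : dist w p = 1)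
    (y1 : y ≠ w) (y2 : y + w ≠ 2 * p) (hw' : ∀ j, dist (w' j) p = 1) (hc' : ∀ j, dist (w' j) (c' j) = 1)
    (h0 : ∀ j, w' j ≠ w) (h2 : ∀ j, w' j + w ≠ 2 * p) (a₂ : ∀ j, p ≠ c' j)
    (b₂ : ∀ j, p + c' j ≠ 2 * w' j)
    (cov : ∀ j, ∀ᶠ b in 𝓝 (w' j), dist b (c' j) = 1 → b ∈ closure (⋃ P ∈ 𝓕 j, Cr U (c' j) P)) :
    ∃ P' : J → Set (Fin k), (∀ j, P' j ∈ 𝓕 j) ∧ (∀ j, w' j ∈ closure (Cr U (c' j) (P' j))) ∧
      ∀ c P, p ≠ c → p + c ≠ 2 * w → w ∈ closure (Cr U c P) →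
        ¬ T p ⊆ {t | t = m ∨ t ∈ P ∨ ∃ j, t ∈ P' j} := by
  obtain ⟨P', h3, h4, h5⟩ := chord_freq h.mx hm hy hw y1 y2 hw' hc' h0 h2 a₂ b₂ cov
  refine ⟨P', h3, h4, fun c P a₁ b₁ hP hsub => ?_⟩
  obtain ⟨x, hx, hT⟩ := ((h5 c P a₁ b₁ hP).and_eventually (h.nhd p)).exists
  obtain ⟨i, hi⟩ := h.ne x
  exact hx i (hsub (hT hi)) (h.sub x hi)

/-- the exact arcs are dense on a circle -/
theorem cov_ex (h : Irr U T) {c w : ℂ} : ∀ᶠ b in 𝓝 w, dist b c = 1 →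
    b ∈ closure (⋃ P ∈ {P | w ∈ closure (Ex T c P)}, Ex T c P) := by
  have hd : ∀ b, dist b c = 1 → ∃ P, b ∈ closure (Ex T c P) := by
    intro b hb
    have h1 : b ∈ closure (⋃ P, Ex T c P) := by
      rw [_root_.mem_closure_iff]
      intro N hN hbN
      have hne : ((fun v => (T v).ncard) '' (N ∩ sphere c 1)).Nonempty := ⟨_, b, ⟨hbN, hb⟩, rfl⟩
      obtain ⟨_, ⟨v, hv, rfl⟩, hmin⟩ :=
        WellFounded.has_min (r := ((· < ·) : ℕ → ℕ → Prop)) wellFounded_lt _ hne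
      refine ⟨v, hv.1, mem_iUnion.2 ⟨T v, hv.2, ?_⟩⟩
      filter_upwards [mem_nhdsWithin_of_mem_nhds (h.nhd v),
        mem_nhdsWithin_of_mem_nhds (hN.mem_nhds hv.1), self_mem_nhdsWithin] with v' h2 h3 h4
      exact Set.eq_of_subset_of_ncard_le h2 (not_lt.1 (hmin _ ⟨v', ⟨h3, h4⟩, rfl⟩)) (Set.toFinite _)
    rw [closure_iUnion_of_finite] at h1
    exact mem_iUnion.1 h1
  have hno : ∀ᶠ b in 𝓝 w, ∀ P, w ∉ closure (Ex T c P) → b ∉ closure (Ex T c P) := by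
    refine eventually_all.2 fun P => ?_
    by_cases h1 : w ∈ closure (Ex T c P)
    · exact Eventually.of_forall fun b h2 => absurd h1 h2
    · filter_upwards [isClosed_closure.isOpen_compl.mem_nhds h1] with b hb _
      exact hb
  filter_upwards [hno] with b hb hbc
  obtain ⟨P, hP⟩ := hd b hbc
  have hw : w ∈ closure (Ex T c P) := by
    by_contra h1
    exact hb P h1 hP
  exact closure_mono (subset_biUnion_of_mem (u := fun P => Ex T c P)
    (show P ∈ {P | w ∈ closure (Ex T c P)} from hw)) hP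

/-- **Chord rule** for exact arcs: the letters at the `w' j` are palettes of exact arcs which
accumulate at `w' j`. -/
theorem chord_ex [Finite J] (h : Irr U T) {m : Fin k} {y p w : ℂ} {w' c' : J → ℂ}
    (hm : m ∈ Pal U y) (hy : dist y p = 1) (hw : dist w p = 1)
    (y1 : y ≠ w) (y2 : y + w ≠ 2 * p) (hw' : ∀ j, dist (w' j) p = 1) (hc' : ∀ j, dist (w' j) (c' j) = 1)
    (h0 : ∀ j, w' j ≠ w) (h2 : ∀ j, w' j + w ≠ 2 * p) (a₂ : ∀ j, p ≠ c' j)
    (b₂ : ∀ j, p + c' j ≠ 2 * w' j) :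
    ∃ P' : J → Set (Fin k), (∀ j, w' j ∈ closure (Ex T (c' j) (P' j))) ∧
      ∀ c P, p ≠ c → p + c ≠ 2 * w → w ∈ closure (Ex T c P) →
        ¬ T p ⊆ {t | t = m ∨ t ∈ P ∨ ∃ j, t ∈ P' j} := by
  obtain ⟨P', h3, -, h5⟩ := chord h (𝓕 := fun j => {P | w' j ∈ closure (Ex T (c' j) P)}) hm hy hw
    y1 y2 hw' hc' h0 h2 a₂ b₂ (fun j => by
      filter_upwards [cov_ex (c := c' j) (w := w' j) h] with b hb hbc
      refine closure_mono ?_ (hb hbc)
      exact iUnion₂_mono fun P _ => Ex_Cr h)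
  exact ⟨P', h3, fun c P a₁ b₁ hP => h5 c P a₁ b₁ (closure_mono (Ex_Cr h) hP)⟩

/-- **Chord rule** of 338: `p` in `XX`, `m` any colour, `w`, `w'` two neighbours of `p` not on one
line with `p`, `c`, `c'` centres of circles through `w`, `w'`.  Either there is a letter at `w'`
which together with each letter at `w` and `m` does not cover `T p`, or there is a letter at `w`
which together with each letter at `w'` and `m` does not cover `T p`. -/
theorem chord_XX (h : Irr U T) {p w w' c c' : ℂ} (hp : p ∈ XX U) (m : Fin k)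
    (hw : dist w p = 1) (hw' : dist w' p = 1) (h0 : w' ≠ w) (h2 : w' + w ≠ 2 * p)
    (hc : dist w c = 1) (hc' : dist w' c' = 1) (a₁ : p ≠ c) (b₁ : p + c ≠ 2 * w)
    (a₂ : p ≠ c') (b₂ : p + c' ≠ 2 * w') :
    (∃ P', w' ∈ closure (Ex T c' P') ∧ ∀ P, w ∈ closure (Ex T c P) →
      ¬ T p ⊆ {t | t = m ∨ t ∈ P ∨ t ∈ P'}) ∨
    (∃ P, w ∈ closure (Ex T c P) ∧ ∀ P', w' ∈ closure (Ex T c' P') →
      ¬ T p ⊆ {t | t = m ∨ t ∈ P ∨ t ∈ P'}) := by
  obtain ⟨y, hy, hm⟩ := h.partner_XX hp m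
  rw [dist_comm] at hy
  by_cases hyw : y = w ∨ y + w = 2 * p
  · right
    have y1 : y ≠ w' := by
      rintro rfl
      rcases hyw with h3 | h3
      · exact h0 h3
      · exact h2 h3
    have y2 : y + w' ≠ 2 * p := by
      intro h4
      rcases hyw with h3 | h3
      · rw [h3] at h4; exact h2 (by linear_combination h4)
      · exact h0 (by linear_combination h4 - h3)
    obtain ⟨P', h3, h4⟩ := chord_ex (J := Unit) h (w' := fun _ => w) (c' := fun _ => c) hm hy hw'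
      y1 y2 (fun _ => hw) (fun _ => hc) (fun _ => h0.symm)
      (fun _ h5 => h2 (by linear_combination h5)) (fun _ => a₁) (fun _ => b₁)
    refine ⟨P' (), h3 (), fun P hP hsub => h4 c' P a₂ b₂ hP (hsub.trans ?_)⟩
    rintro t (ht | ht | ht)
    · exact Or.inl ht
    · exact Or.inr (Or.inr ⟨(), ht⟩)
    · exact Or.inr (Or.inl ht)
  · left
    push Not at hyw
    obtain ⟨P', h3, h4⟩ := chord_ex (J := Unit) h (w' := fun _ => w') (c' := fun _ => c') hm hy hw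
      hyw.1 hyw.2 (fun _ => hw') (fun _ => hc') (fun _ => h0) (fun _ => h2) (fun _ => a₂)
      (fun _ => b₂)
    refine ⟨P' (), h3 (), fun P hP hsub => h4 c P a₁ b₁ hP (hsub.trans ?_)⟩
    rintro t (ht | ht | ht)
    · exact Or.inl ht
    · exact Or.inr (Or.inl ht)
    · exact Or.inr (Or.inr ⟨(), ht⟩)

end Vale.Agent.P032.H406
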