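import Vale.Agent.P032.H406.Cross
import Vale.Agent.P032.S5.H80.Anti

/-!
# P032: continua through exact arcs

`g` an interior point of an exact `ab`-arc of `S(z)`, `a` inside, `b` outside, both at `z`.
`outer_avoid406` : a connected set of `b`-points through `g` does not meet the open disc about `z`.
`inner_sub406` : a connected set of `a`-points through `g` lies in the closed disc about `z`.
`outer_far406`, `inner_near406` : the same against a connected set of points of the same colour
through `z`.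
`both_sub406` : a connected set of points with both colours through `g` stays on `S(z)`.
-/

open Set Filter Topology Metric

noncomputable section

namespace Vale.Agent.P032.H406

open Vale.Agent.P032.Six

variable {k : ℕ} {U : Fin k → Set ℂ} {T : ℂ → Set (Fin k)}

/-- points of colour `b` near `z` are farther than one from an interior point of the arc -/
theorem exists_outer406 (h : Irr U T) {z g : ℂ} {a b : Fin k} (hg : Arc T z g {a, b})
    (hs : Sd U z g a b) (hb : b ∈ T z) {N : Set ℂ} (hN : N ∈ 𝓝 z) :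
    ∃ x ∈ N, x ∈ U b ∧ 1 < dist x g := by
  obtain ⟨x, hx1, hx2, hx3⟩ := ((h.pure z b hb).and_eventually
    ((show ∀ᶠ x in 𝓝 z, _ from h.sd_center hg hs).and
      (show ∀ᶠ x in 𝓝 z, x ∈ N from hN))).exists
  have hxU : x ∈ U b := h.mem_of_single (by rw [hx1])
  refine ⟨x, hx3, hxU, ?_⟩
  have hbg : b ∈ Pal U g := h.sub g (by rw [hg.mem]; simp)
  rcases lt_trichotomy (dist x g) 1 with h1 | h1 | h1
  · exact absurd (subset_closure hxU) (hx2.2 h1)
  · exact absurd hbg (h.mx.notMem' hxU h1)
  · exact h1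

/-- points of colour `a` near `z` are nearer than one to an interior point of the arc -/
theorem exists_inner406 (h : Irr U T) {z g : ℂ} {a b : Fin k} (hg : Arc T z g {a, b})
    (hs : Sd U z g a b) (ha : a ∈ T z) {N : Set ℂ} (hN : N ∈ 𝓝 z) :
    ∃ x ∈ N, x ∈ U a ∧ dist x g < 1 := by
  obtain ⟨x, hx1, hx2, hx3⟩ := ((h.pure z a ha).and_eventually
    ((show ∀ᶠ x in 𝓝 z, _ from h.sd_center hg hs).and
      (show ∀ᶠ x in 𝓝 z, x ∈ N from hN))).exists
  have hxU : x ∈ U a := h.mem_of_single (by rw [hx1])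
  refine ⟨x, hx3, hxU, ?_⟩
  have hag : a ∈ Pal U g := h.sub g (by rw [hg.mem]; simp)
  rcases lt_trichotomy (dist x g) 1 with h1 | h1 | h1
  · exact h1
  · exact absurd hag (h.mx.notMem' hxU h1)
  · exact absurd (subset_closure hxU) (hx2.1 h1)

variable {C : Set ℂ}

/-- **The continuum of the outer colour avoids the open disc about the centre.** -/
theorem outer_avoid406 (h : Irr U T) {z g : ℂ} {a b : Fin k} (hg : Arc T z g {a, b})
    (hs : Sd U z g a b) (hb : b ∈ T z) (hC : IsPreconnected C) (hCb : ∀ x ∈ C, b ∈ Pal U x)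
    (hgC : g ∈ C) : ∀ q ∈ C, 1 ≤ dist z q := by
  intro q hq
  by_contra hcon
  push Not at hcon
  have c1 : Continuous fun x : ℂ => dist x q := by fun_prop
  obtain ⟨x, hx, hxU, hxg⟩ := exists_outer406 h hg hs hb
    (c1.continuousAt.preimage_mem_nhds (isOpen_Iio.mem_nhds hcon))
  exact cross406 h.mx hC hCb hq hgC hx hxg (subset_closure hxU)

/-- **The continuum of the inner colour is in the closed disc about the centre.** -/
theorem inner_sub406 (h : Irr U T) {z g : ℂ} {a b : Fin k} (hg : Arc T z g {a, b})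
    (hs : Sd U z g a b) (ha : a ∈ T z) (hC : IsPreconnected C) (hCa : ∀ x ∈ C, a ∈ Pal U x)
    (hgC : g ∈ C) : ∀ q ∈ C, dist z q ≤ 1 := by
  intro q hq
  by_contra hcon
  push Not at hcon
  have c1 : Continuous fun x : ℂ => dist x q := by fun_prop
  obtain ⟨x, hx, hxU, hxg⟩ := exists_inner406 h hg hs ha
    (c1.continuousAt.preimage_mem_nhds (isOpen_Ioi.mem_nhds hcon))
  exact cross406 h.mx hC hCa hgC hq hxg hx (subset_closure hxU)

/-- the outer colour: a continuum through the centre is far from a continuum through the arc -/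
theorem outer_far406 (h : Irr U T) {z g : ℂ} {a b : Fin k} (hg : Arc T z g {a, b})
    (hs : Sd U z g a b) (hb : b ∈ T z) (hC : IsPreconnected C) (hCb : ∀ x ∈ C, b ∈ Pal U x)
    (hgC : g ∈ C) {D : Set ℂ} (hD : IsPreconnected D) (hDb : ∀ x ∈ D, b ∈ Pal U x) (hzD : z ∈ D)
    (hn : ∀ p ∈ D, ∃ q ∈ C, dist p q ≠ 1) : ∀ p ∈ D, ∀ q ∈ C, 1 ≤ dist p q := by
  rcases near_or_far406 h.mx hC hD hCb hDb hn with h1 | h1
  · obtain ⟨q, hq, hne⟩ := hn z hzD
    exact absurd (le_antisymm (h1 z hzD q hq)
      (outer_avoid406 h hg hs hb hC hCb hgC q hq)) hne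
  · exact h1

/-- the inner colour: a continuum through the centre is near to a continuum through the arc -/
theorem inner_near406 (h : Irr U T) {z g : ℂ} {a b : Fin k} (hg : Arc T z g {a, b})
    (hs : Sd U z g a b) (ha : a ∈ T z) (hC : IsPreconnected C) (hCa : ∀ x ∈ C, a ∈ Pal U x)
    (hgC : g ∈ C) {D : Set ℂ} (hD : IsPreconnected D) (hDa : ∀ x ∈ D, a ∈ Pal U x) (hzD : z ∈ D)
    (hn : ∀ p ∈ D, ∃ q ∈ C, dist p q ≠ 1) : ∀ p ∈ D, ∀ q ∈ C, dist p q ≤ 1 := by
  rcases near_or_far406 h.mx hC hD hCa hDa hn with h1 | h1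
  · exact h1
  · obtain ⟨q, hq, hne⟩ := hn z hzD
    exact absurd (le_antisymm (inner_sub406 h hg hs ha hC hCa hgC q hq) (h1 z hzD q hq)) hne

/-- a connected set of points with both colours of the pair through the arc stays on the circle -/
theorem both_sub406 (h : Irr U T) {z g : ℂ} {a b : Fin k} (hg : Arc T z g {a, b})
    (hs : Sd U z g a b) (ha : a ∈ T z) (hb : b ∈ T z) (hC : IsPreconnected C)
    (hCa : ∀ x ∈ C, a ∈ Pal U x) (hCb : ∀ x ∈ C, b ∈ Pal U x) (hgC : g ∈ C) :
    ∀ q ∈ C, dist z q = 1 := fun q hq =>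
  le_antisymm (inner_sub406 h hg hs ha hC hCa hgC q hq)
    (outer_avoid406 h hg hs hb hC hCb hgC q hq)

/-- **Outer letters of two arcs**: `b` is outer on an exact arc of `S(z)` through `g` and on an exact
arc of `S(z')` through `g'`, the arcs joined by a connected set of `b`-points: no point of it is in
one of the open discs. -/
theorem outer_outer406 (h : Irr U T) {z g z' g' : ℂ} {a a' b : Fin k} (hg : Arc T z g {a, b})
    (hs : Sd U z g a b) (hb : b ∈ T z) (hg' : Arc T z' g' {a', b}) (hs' : Sd U z' g' a' b)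
    (hb' : b ∈ T z') (hC : IsPreconnected C) (hCb : ∀ x ∈ C, b ∈ Pal U x) (hgC : g ∈ C)
    (hgC' : g' ∈ C) : ∀ q ∈ C, 1 ≤ dist z q ∧ 1 ≤ dist z' q := fun q hq =>
  ⟨outer_avoid406 h hg hs hb hC hCb hgC q hq, outer_avoid406 h hg' hs' hb' hC hCb hgC' q hq⟩

end Vale.Agent.P032.H406
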