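import Vale.Agent.P032.H383.Letters

/-!
# P032: unit triangles, three disjoint letters

`Irr.tri_letters`: `z, p, q` a unit triangle: arbitrarily close to every direction there is a direction
at which the palettes of `S(z)`, `S(p)`, `S(q)` are constant, pairwise disjoint, not single colours of
their centre and leave two colours of their centre.
`Irr.tri_j` (612's rule TRI-J): `T p = T q` has four colours and no pair letter of `S(p)` is disjoint
from a pair letter of `S(q)`: then no exact arc of `S(z)` has the palette `(T p)ᶜ`.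
-/

open Set Filter Topology Metric

noncomputable section

namespace Vale.Agent.P032.Six

open Vale.Agent.P032.S5.H767 Vale.Agent.P032.S5.H122 Vale.Agent.P032.Sweep

variable {U : Fin 6 → Set ℂ} {T : ℂ → Set (Fin 6)} {z p q r : ℂ}

theorem exists_pt406 {z r : ℂ} (hr : dist r z = 1) : ∃ u : ℝ, pt z u = r := by
  obtain ⟨t, ht⟩ := exists_cis (u := r - z) (by rw [← dist_eq_norm]; exact hr)
  refine ⟨t / (Real.pi / 3), ?_⟩
  unfold pt
  rw [div_mul_cancel₀ _ (by positivity), ← ht]
  ring

/-- the three centres -/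
def tri406 (z p q : ℂ) : Fin 3 → ℂ := ![z, p, q]

/-- **Three circles of a unit triangle**: near every direction there is one at which the three
palettes are constant and pairwise disjoint. -/
theorem Irr.tri_letters (h : Irr U T) (hzp : dist z p = 1) (hzq : dist z q = 1)
    (hpq : dist p q = 1) {V : Set ℝ} (hV : IsOpen V) (hne : V.Nonempty) :
    ∃ u ∈ V, u ∈ Lc T z ∧ u ∈ Lc T p ∧ u ∈ Lc T q ∧
      Disjoint (T (pt z u)) (T (pt p u)) ∧ Disjoint (T (pt z u)) (T (pt q u)) ∧
      Disjoint (T (pt p u)) (T (pt q u)) := by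
  have hd : Dense (Dir (tri406 z p q) 0 ∩ Lall T (tri406 z p q) 0) :=
    (Dir_dense (tri406 z p q) 0).inter_of_isOpen_right (Lall_dense h) Lall_open
  obtain ⟨u, ⟨hu1, hu2⟩, huV⟩ := hd.exists_mem_open hV hne
  have hb := bas_of h hu2 hu1
  have e : ∀ c : ℂ, pt c (0 + u + (((0 : Fin 6) : ℕ) : ℝ)) = pt c u := by
    intro c; congr 1; simp
  have e' : (0 + u + (((0 : Fin 6) : ℕ) : ℝ)) = u := by simp
  have h01 := hb.prod 0 1 hzp 0
  have h02 := hb.prod 0 2 hzq 0
  have h12 := hb.prod 1 2 hpq 0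
  have l0 := hu2 (0, 0)
  have l1 := hu2 (1, 0)
  have l2 := hu2 (2, 0)
  simp only [e'] at l0 l1 l2
  simp only [pals, e] at h01 h02 h12
  exact ⟨u, huV, l0, l1, l2, h01, h02, h12⟩

/-- the directions of an open set of exact points -/
theorem isOpen_dirs {P : Set (Fin 6)} : IsOpen {u : ℝ | pt z u ∈ Ex T z P} := by
  rw [isOpen_iff_mem_nhds]
  intro u hu
  have h1 := ex_open hu
  have h2 : Tendsto (fun v : ℝ => pt z v) (𝓝 u) (𝓝[sphere z 1] (pt z u)) :=
    tendsto_nhdsWithin_iff.2 ⟨(continuous_pt z).tendsto u,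
      Eventually.of_forall fun v => dist_pt z v⟩
  exact h2.eventually h1

/-- **TRI-J** (helper612).  `z, p, q` a unit triangle, `T p = T q` has four colours, and the pair
letters of `S(p)` and of `S(q)` are never disjoint.  Then `S(z)` has no exact arc with the complementary
pair. -/
theorem Irr.tri_j (h : Irr U T) (hzp : dist z p = 1) (hzq : dist z q = 1) (hpq : dist p q = 1)
    (hT : T p = T q) (h4 : (T p).ncard = 4)
    (hdis : ∀ P Q : Set (Fin 6), P.ncard = 2 → Q.ncard = 2 → P ⊆ T p → Q ⊆ T p →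
      (Ex T p P).Nonempty → (Ex T q Q).Nonempty → ¬ Disjoint P Q)
    (hr : r ∈ Ex T z (T p)ᶜ) : False := by
  obtain ⟨u₀, hu₀⟩ : ∃ u : ℝ, pt z u = r := exists_pt406 hr.1
  obtain ⟨u, hu, hl, hlp, hlq, h1, h2, h3⟩ := h.tri_letters hzp hzq hpq
    (isOpen_dirs (T := T) (z := z) (P := (T p)ᶜ)) ⟨u₀, by
      show pt z u₀ ∈ Ex T z (T p)ᶜ
      rw [hu₀]; exact hr⟩
  have hz : T (pt z u) = (T p)ᶜ := ex_self hu
  rw [hz] at h1 h2
  have hsp : T (pt p u) ⊆ T p := by
    have := h1.subset_compl_left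
    rwa [compl_compl] at this
  have hsq : T (pt q u) ⊆ T p := by
    have := h2.subset_compl_left
    rwa [compl_compl] at this
  refine hdis _ _ (pair_four h h4 hlp hsp).1 (pair_four h (hT ▸ h4) hlq (hT ▸ hsq)).1 hsp hsq
    ⟨_, Lc_Ex hlp⟩ ⟨_, Lc_Ex hlq⟩ h3

end Vale.Agent.P032.Six
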